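import Mathlib

/-!
# P184 / Tits lemma, modules T2 and T3: a valuation ring trivial on `k` with `lam` in its maximal ideal

FROZEN STATEMENTS (do not change them; fill the sorries).

ROUTE.
* `exists_valuationSubring`: `A := (Algebra.adjoin k {lam}).toSubring`, `I := Ideal.span {⟨lam, _⟩}`.  `I ≠ ⊤`: otherwise
  `lam * a = 1` with `a = aeval lam P` (`Algebra.adjoin_singleton_eq_range_aeval`), so `X * P - 1` is a nonzero
  polynomial (its constant coefficient is `-1`) killing `lam`, against `h`.
  `Ideal.image_subset_nonunits_valuationSubring I hI` gives `O ≥ A` with `lam ∈ O.nonunits`;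
  `ValuationSubring.mem_nonunits_iff`.
* `valuation_adjoin`: `a = aeval lam P`, `P ≠ 0`; `P = X ^ j * Q` with `Q.coeff 0 ≠ 0`
  (`Polynomial.exists_eq_pow_rootMultiplicity_mul_and_not_dvd` at the root `0`, or `Polynomial.divX` induction on the degree);
  `aeval lam Q = algebraMap k F (Q.coeff 0) + lam * aeval lam Q.divX` (`Polynomial.divX_mul_X_add`);
  the first term has valuation `1` (it and its inverse are in `O`: `ValuationSubring.valuation_le_one_iff`), the second has
  valuation `< 1` (`aeval lam _ ∈ O` since `O ⊇ k[lam]`), so the sum has valuation `1`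
  (`Valuation.map_add_eq_of_lt_left` / `_right`).
* `valuation_torsion`: `x` is a root of a nonzero `P` with coefficients `a_i ∈ k[lam]`.  Among the nonzero terms
  `a_i x ^ i` the largest valuation is attained at least twice (otherwise the valuation of the sum is that maximum, which is not
  `0`: `Valuation.map_sum_eq_of_lt` or an induction with `Valuation.map_add_eq_of_lt_left`).  So there are `i < j` with
  `w a_i * w x ^ i = w a_j * w x ^ j`, `a_i, a_j ≠ 0`, i.e. `w x ^ (j - i) = w lam ^ (m_i - m_j)` (integers) by `valuation_adjoin`.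
-/

namespace Vale.Agent.Lib.P184.Tits

variable {k F : Type*} [Field k] [Field F] [Algebra k F]

theorem exists_valuationSubring (lam : F) (h : Transcendental k lam) :
    ∃ O : ValuationSubring F, (∀ c : k, algebraMap k F c ∈ O) ∧ O.valuation lam < 1 := by
  classical
  set A : Subring F := (Algebra.adjoin k {lam}).toSubring with hA
  have hlamA : lam ∈ A := Algebra.subset_adjoin (Set.mem_singleton lam)
  set I : Ideal A := Ideal.span {(⟨lam, hlamA⟩ : A)} with hI
  have hItop : I ≠ ⊤ := by
    intro htop
    have h1 : (1 : A) ∈ I := by rw [htop]; trivial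
    rw [hI, Ideal.mem_span_singleton'] at h1
    obtain ⟨a, ha⟩ := h1
    have haA : (a : F) ∈ Algebra.adjoin k {lam} := a.2
    rw [Algebra.adjoin_singleton_eq_range_aeval] at haA
    obtain ⟨P, hP⟩ := haA
    have hmul : (a : F) * lam = 1 := by
      have := congrArg (fun z : A => (z : F)) ha
      simpa using this
    apply h
    refine ⟨P * Polynomial.X - 1, ?_, ?_⟩
    · intro h0
      have := congrArg (fun q : Polynomial k => q.coeff 0) h0
      simp at this
    · have hP' : Polynomial.aeval lam P = (a : F) := hP
      simp [hP', hmul]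
  obtain ⟨O, hAO, hO⟩ := Ideal.image_subset_nonunits_valuationSubring I hItop
  refine ⟨O, fun c => ?_, ?_⟩
  · exact hAO ((Algebra.adjoin k {lam}).algebraMap_mem c)
  · have : lam ∈ O.nonunits := by
      apply hO
      exact ⟨⟨lam, hlamA⟩, Ideal.subset_span (Set.mem_singleton _), rfl⟩
    exact (ValuationSubring.mem_nonunits_iff O).mp this

theorem valuation_adjoin (O : ValuationSubring F) (hk : ∀ c : k, algebraMap k F c ∈ O) (lam : F)
    (hlam : O.valuation lam < 1) (a : F) (ha : a ∈ Algebra.adjoin k {lam}) (ha0 : a ≠ 0) :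
    ∃ j : ℕ, O.valuation a = O.valuation lam ^ j := by
  classical
  have hlamO : lam ∈ O := (ValuationSubring.valuation_le_one_iff O lam).1 hlam.le
  -- every polynomial value lies in `O`
  have hmem : ∀ Q : Polynomial k, Polynomial.aeval lam Q ∈ O := by
    intro Q
    rw [Polynomial.aeval_eq_sum_range]
    refine Subring.sum_mem O.toSubring (fun i _ => ?_)
    rw [Algebra.smul_def]
    exact O.mul_mem _ _ (hk _) (pow_mem hlamO i)
  rw [Algebra.adjoin_singleton_eq_range_aeval] at ha
  obtain ⟨P, rfl⟩ := ha
  have key : ∀ (n : ℕ) (P : Polynomial k), P.natDegree ≤ n → Polynomial.aeval lam P ≠ 0 →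
      ∃ j : ℕ, O.valuation (Polynomial.aeval lam P) = O.valuation lam ^ j := by
    intro n
    induction n with
    | zero =>
      intro P hP h0
      rw [Polynomial.eq_C_of_natDegree_le_zero hP] at h0 ⊢
      rw [Polynomial.aeval_C] at h0 ⊢
      refine ⟨0, ?_⟩
      rw [pow_zero]
      have hc : P.coeff 0 ≠ 0 := by
        intro h
        apply h0
        rw [h, map_zero]
      refine le_antisymm ((ValuationSubring.valuation_le_one_iff O _).2 (hk _)) ?_
      have h1 : O.valuation (algebraMap k F (P.coeff 0)⁻¹) ≤ 1 :=
        (ValuationSubring.valuation_le_one_iff O _).2 (hk _)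
      rw [map_inv₀, map_inv₀] at h1
      have hne : O.valuation (algebraMap k F (P.coeff 0)) ≠ 0 := by
        rw [Valuation.ne_zero_iff]
        exact h0
      exact (inv_le_one₀ (zero_lt_iff.2 hne)).1 h1
    | succ n ih =>
      intro P hP h0
      have hdec : Polynomial.aeval lam P =
          Polynomial.aeval lam P.divX * lam + algebraMap k F (P.coeff 0) := by
        conv_lhs => rw [← Polynomial.divX_mul_X_add P]
        simp
      by_cases hc : P.coeff 0 = 0
      · rw [hc, map_zero, add_zero] at hdec
        have hd0 : Polynomial.aeval lam P.divX ≠ 0 := by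
          intro h
          apply h0
          rw [hdec, h, zero_mul]
        have hdeg : P.divX.natDegree ≤ n := by
          rw [Polynomial.natDegree_divX_eq_natDegree_tsub_one]
          omega
        obtain ⟨j, hj⟩ := ih P.divX hdeg hd0
        refine ⟨j + 1, ?_⟩
        rw [hdec, map_mul, hj, pow_succ]
      · refine ⟨0, ?_⟩
        rw [pow_zero, hdec]
        have hcF : algebraMap k F (P.coeff 0) ≠ 0 := by
          intro h
          exact hc ((map_eq_zero _).1 h)
        have h1 : O.valuation (algebraMap k F (P.coeff 0)) = 1 := by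
          refine le_antisymm ((ValuationSubring.valuation_le_one_iff O _).2 (hk _)) ?_
          have h1 : O.valuation (algebraMap k F (P.coeff 0)⁻¹) ≤ 1 :=
            (ValuationSubring.valuation_le_one_iff O _).2 (hk _)
          rw [map_inv₀, map_inv₀] at h1
          have hne : O.valuation (algebraMap k F (P.coeff 0)) ≠ 0 := by
            rw [Valuation.ne_zero_iff]
            exact hcF
          exact (inv_le_one₀ (zero_lt_iff.2 hne)).1 h1
        have h2 : O.valuation (Polynomial.aeval lam P.divX * lam) < 1 := by
          rw [map_mul]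
          have h3 : O.valuation (Polynomial.aeval lam P.divX) ≤ 1 :=
            (ValuationSubring.valuation_le_one_iff O _).2 (hmem _)
          calc O.valuation (Polynomial.aeval lam P.divX) * O.valuation lam
              ≤ 1 * O.valuation lam := mul_le_mul_left h3 _
            _ = O.valuation lam := one_mul _
            _ < 1 := hlam
        rw [Valuation.map_add_eq_of_lt_right _ (by rw [h1]; exact h2), h1]
  exact key P.natDegree P le_rfl ha0

theorem valuation_torsion (O : ValuationSubring F) (hk : ∀ c : k, algebraMap k F c ∈ O) (lam : F)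
    (hl0 : lam ≠ 0) (hlam : O.valuation lam < 1)
    (halg : Algebra.IsAlgebraic (Algebra.adjoin k {lam}) F) (x : F) (hx : x ≠ 0) :
    ∃ (n : ℕ) (m : ℤ), 0 < n ∧ O.valuation x ^ n = O.valuation lam ^ m := by
  classical
  obtain ⟨P, hP0, hP⟩ := halg.isAlgebraic x
  set w := O.valuation with hw
  have hwx : w x ≠ 0 := (Valuation.ne_zero_iff _).2 hx
  have hwl : w lam ≠ 0 := (Valuation.ne_zero_iff _).2 hl0
  let t : ℕ → F := fun i => ((P.coeff i : Algebra.adjoin k {lam}) : F) * x ^ i
  have hsum : ∑ i ∈ P.support, t i = 0 := by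
    have h := hP
    rw [Polynomial.aeval_def, Polynomial.eval₂_eq_sum, Polynomial.sum_def] at h
    exact h
  have hpair : ∃ i ∈ P.support, ∃ j ∈ P.support, i < j ∧ w (t i) = w (t j) := by
    by_contra hcon
    push Not at hcon
    have hne : P.support.Nonempty := by
      rw [Finset.nonempty_iff_ne_empty]
      intro h
      exact hP0 (Polynomial.support_eq_empty.1 h)
    obtain ⟨i0, hi0, hmax⟩ := Finset.exists_max_image P.support (fun i => w (t i)) hne
    have h1 : w (∑ i ∈ P.support, t i) = w (t i0) := by
      refine Valuation.map_sum_eq_of_lt _ hi0 (fun i hi => ?_)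
      rw [Finset.mem_sdiff, Finset.mem_singleton] at hi
      refine lt_of_le_of_ne (hmax i hi.1) ?_
      rcases lt_or_gt_of_ne hi.2 with h | h
      · exact hcon i hi.1 i0 hi0 h
      · exact (hcon i0 hi0 i hi.1 h).symm
    rw [hsum, map_zero] at h1
    have h2 : t i0 ≠ 0 := by
      refine mul_ne_zero ?_ (pow_ne_zero _ hx)
      have := Polynomial.mem_support_iff.1 hi0
      exact fun h => this (Subtype.ext h)
    exact (Valuation.ne_zero_iff _).2 h2 h1.symm
  obtain ⟨i, hi, j, hj, hij, heq⟩ := hpair
  have hai : ((P.coeff i : Algebra.adjoin k {lam}) : F) ≠ 0 := by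
    have := Polynomial.mem_support_iff.1 hi
    exact fun h => this (Subtype.ext h)
  have haj : ((P.coeff j : Algebra.adjoin k {lam}) : F) ≠ 0 := by
    have := Polynomial.mem_support_iff.1 hj
    exact fun h => this (Subtype.ext h)
  obtain ⟨mi, hmi⟩ := valuation_adjoin O hk lam hlam _ (P.coeff i).2 hai
  obtain ⟨mj, hmj⟩ := valuation_adjoin O hk lam hlam _ (P.coeff j).2 haj
  refine ⟨j - i, (mi : ℤ) - mj, by omega, ?_⟩
  simp only [t, map_mul, map_pow] at heq
  rw [← hw] at hmi hmj
  rw [hmi, hmj] at heq
  have hj' : w x ^ j = w x ^ (j - i) * w x ^ i := by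
    rw [← pow_add]
    congr 1
    omega
  rw [hj', ← mul_assoc] at heq
  have h3 := mul_right_cancel₀ (pow_ne_zero i hwx) heq
  rw [zpow_sub₀ hwl, zpow_natCast, zpow_natCast, h3]
  field_simp

end Vale.Agent.Lib.P184.Tits
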