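import Mathlib

/-!
# P184 / Tits lemma, module T4: a valuation whose values are rational powers of `w lam` gives a real absolute value

FROZEN STATEMENT (proved by helper27).

ROUTE.  For `x ≠ 0` choose `n x > 0`, `m x : ℤ` with `w x ^ n x = w lam ^ m x`; `r x := (m x : ℝ) / n x`;
`v x := if x = 0 then 0 else (1 / 2 : ℝ) ^ r x` (`Real.rpow`).
KEY LEMMA: if `a ^ n = t ^ m`, `b ^ n' = t ^ m'` in a linearly ordered commutative group with zero, `0 < t < 1`, `n, n' > 0`, then
`a ≤ b ↔ (m' : ℝ) / n' ≤ (m : ℝ) / n`.  (Raise to the power `n * n'`: `a ^ (n n') = t ^ (m n')`, `b ^ (n n') = t ^ (m' n)`;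
`pow_le_pow_iff_left₀`; `zpow` of `t < 1` is strictly antitone: `zpow_le_zpow_iff_right_of_lt_one₀`.)
* multiplicativity: `w (x y) ^ (n x * n y) = w lam ^ (m x * n y + m y * n x)`, so by the key lemma (both directions, `a = b`)
  `r (x y) = r x + r y`; `Real.rpow_add`.
* `w (x + y) ≤ max (w x) (w y)` gives `r (x + y) ≥ min (r x) (r y)`, so `v (x + y) ≤ max (v x) (v y) ≤ v x + v y`
  (`Real.rpow_le_rpow_of_exponent_ge`).
* `r lam = 1` by the key lemma (`w lam ^ 1 = w lam ^ (1 : ℤ)`), so `v lam = 1 / 2 ≠ 1`.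
-/

namespace Vale.Agent.Lib.P184.Tits

theorem le_iff_of_pow_eq_zpow {Γ : Type*} [LinearOrderedCommGroupWithZero Γ] {t a b : Γ}
    (t0 : 0 < t) (t1 : t < 1) {n n' : ℕ} {m m' : ℤ} (hn : 0 < n) (hn' : 0 < n')
    (ha : a ^ n = t ^ m) (hb : b ^ n' = t ^ m') :
    a ≤ b ↔ m' * n ≤ m * n' := by
  have h1 : a ^ (n * n') = t ^ (m * n') := by
    rw [pow_mul, ha, zpow_mul, zpow_natCast]
  have h2 : b ^ (n * n') = t ^ (m' * n) := by
    rw [mul_comm n n', pow_mul, hb, zpow_mul, zpow_natCast]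
  rw [← pow_le_pow_iff_left₀ zero_le zero_le (Nat.mul_ne_zero hn.ne' hn'.ne'), h1, h2,
    zpow_le_zpow_iff_right_of_lt_one₀ t0 t1]

theorem le_iff_div_le_of_pow_eq_zpow {Γ : Type*} [LinearOrderedCommGroupWithZero Γ] {t a b : Γ}
    (t0 : 0 < t) (t1 : t < 1) {n n' : ℕ} {m m' : ℤ} (hn : 0 < n) (hn' : 0 < n')
    (ha : a ^ n = t ^ m) (hb : b ^ n' = t ^ m') :
    a ≤ b ↔ (m' : ℝ) / n' ≤ (m : ℝ) / n := by
  rw [le_iff_of_pow_eq_zpow t0 t1 hn hn' ha hb]
  have hnR : (0 : ℝ) < n := by exact_mod_cast hn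
  have hnR' : (0 : ℝ) < n' := by exact_mod_cast hn'
  rw [div_le_div_iff₀ hnR' hnR]
  constructor
  · intro h
    exact_mod_cast h
  · intro h
    exact_mod_cast h

theorem exists_abv_of_torsion {F Γ : Type*} [Field F] [LinearOrderedCommGroupWithZero Γ]
    (w : Valuation F Γ) (lam : F) (h0 : lam ≠ 0) (h1 : w lam < 1)
    (ht : ∀ x : F, x ≠ 0 → ∃ (n : ℕ) (m : ℤ), 0 < n ∧ w x ^ n = w lam ^ m) :
    ∃ v : AbsoluteValue F ℝ, v lam ≠ 1 := by
  classical
  have t0 : 0 < w lam := by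
    rw [zero_lt_iff]
    exact (Valuation.ne_zero_iff w).2 h0
  choose! N M hNM using ht
  set r : F → ℝ := fun x => (M x : ℝ) / N x with hr
  have hle : ∀ x y : F, x ≠ 0 → y ≠ 0 → (w x ≤ w y ↔ r y ≤ r x) := by
    intro x y hx hy
    exact le_iff_div_le_of_pow_eq_zpow t0 h1 (hNM x hx).1 (hNM y hy).1 (hNM x hx).2 (hNM y hy).2
  have hreq : ∀ z : F, z ≠ 0 → ∀ (n : ℕ) (m : ℤ), 0 < n → w z ^ n = w lam ^ m →
      r z = (m : ℝ) / n := by
    intro z hz n m hn hzn
    apply le_antisymm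
    · exact (le_iff_div_le_of_pow_eq_zpow t0 h1 hn (hNM z hz).1 hzn (hNM z hz).2).1 le_rfl
    · exact (le_iff_div_le_of_pow_eq_zpow t0 h1 (hNM z hz).1 hn (hNM z hz).2 hzn).1 le_rfl
  have hmul : ∀ x y : F, x ≠ 0 → y ≠ 0 → r (x * y) = r x + r y := by
    intro x y hx hy
    have hNx := (hNM x hx).1
    have hNy := (hNM y hy).1
    have hpow : w (x * y) ^ (N x * N y) = w lam ^ (M x * N y + M y * N x) := by
      rw [map_mul, mul_pow, pow_mul, (hNM x hx).2, mul_comm (N x) (N y), pow_mul, (hNM y hy).2,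
        zpow_add₀ t0.ne', zpow_mul, zpow_mul, zpow_natCast, zpow_natCast]
    rw [hreq (x * y) (mul_ne_zero hx hy) (N x * N y) _ (Nat.mul_pos hNx hNy) hpow]
    have hnR : (N x : ℝ) ≠ 0 := by exact_mod_cast hNx.ne'
    have hnR' : (N y : ℝ) ≠ 0 := by exact_mod_cast hNy.ne'
    simp only [hr]
    push_cast
    field_simp
  have hlam : r lam = 1 := by
    have := hreq lam h0 1 1 one_pos (by simp)
    simpa using this
  have hhalf : (0 : ℝ) < 1 / 2 := by norm_num
  refine ⟨{ toFun := fun x => if x = 0 then 0 else (1 / 2 : ℝ) ^ r x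
            map_mul' := ?_
            nonneg' := ?_
            eq_zero' := ?_
            add_le' := ?_ }, ?_⟩
  · intro x y
    by_cases hx : x = 0
    · simp [hx]
    by_cases hy : y = 0
    · simp [hy]
    simp only [hx, hy, mul_ne_zero hx hy, if_false]
    rw [hmul x y hx hy, Real.rpow_add hhalf]
  · intro x
    by_cases hx : x = 0
    · simp [hx]
    simp only [hx, if_false]
    exact (Real.rpow_pos_of_pos hhalf _).le
  · intro x
    by_cases hx : x = 0
    · simp [hx]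
    simp only [hx, if_false, iff_false]
    exact (Real.rpow_pos_of_pos hhalf _).ne'
  · intro x y
    by_cases hx : x = 0
    · simp [hx]
    by_cases hy : y = 0
    · simp [hy]
    by_cases hxy : x + y = 0
    · simp only [hx, hy, hxy, if_false, if_true]
      exact add_nonneg (Real.rpow_pos_of_pos hhalf _).le (Real.rpow_pos_of_pos hhalf _).le
    simp only [hx, hy, hxy, if_false]
    have hpx := Real.rpow_pos_of_pos hhalf (r x)
    have hpy := Real.rpow_pos_of_pos hhalf (r y)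
    rcases le_max_iff.1 (w.map_add x y) with h | h
    · have h2 := (hle (x + y) x hxy hx).1 h
      have := Real.rpow_le_rpow_of_exponent_ge hhalf (by norm_num) h2
      linarith
    · have h2 := (hle (x + y) y hxy hy).1 h
      have := Real.rpow_le_rpow_of_exponent_ge hhalf (by norm_num) h2
      linarith
  · show (if lam = 0 then (0 : ℝ) else (1 / 2 : ℝ) ^ r lam) ≠ 1
    rw [if_neg h0, hlam]
    norm_num

end Vale.Agent.Lib.P184.Tits
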