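import Vale.Agent.Lib.P184.Tits.Basis
import Vale.Agent.Lib.P184.Tits.Chevalley
import Vale.Agent.Lib.P184.Tits.RankOne

/-!
# P184 / Tits lemma, module T5: transcendental elements and elements of infinite order in positive characteristic
are detected by a real absolute value

FROZEN STATEMENTS (do not change them; fill the sorry).

ROUTE for `exists_abv_charP`.  If `lam = 0` take `AbsoluteValue.trivial` (value `0 ≠ 1`).  Otherwise, with
`letI := ZMod.algebra F p`, `lam` is transcendental over `ZMod p`: if it is algebraic (= integral), then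
`IntermediateField.adjoin (ZMod p) {lam}` (or `Algebra.adjoin`) is finite dimensional over the finite field `ZMod p`, hence a finite
field (`Module.finite_of_finite` / `Finite`), so the nonzero `lam` has finite multiplicative order
(`isOfFinOrder_of_finite` on the units, or `FiniteField.pow_card_sub_one_eq_one`), against `h`.
-/

namespace Vale.Agent.Lib.P184.Tits

theorem exists_abv_of_transcendental {k0 F : Type*} [Field k0] [Field F] [Algebra k0 F] (lam : F)
    (h : Transcendental k0 lam) : ∃ v : AbsoluteValue F ℝ, v lam ≠ 1 := by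
  obtain ⟨k, hk, halg⟩ := exists_intermediate lam h
  obtain ⟨O, hO, hlam⟩ := exists_valuationSubring (k := k) lam hk
  have h0 : lam ≠ 0 := by
    rintro rfl
    exact hk isAlgebraic_zero
  exact exists_abv_of_torsion O.valuation lam h0 hlam
    (fun x hx => valuation_torsion (k := k) O hO lam h0 hlam halg x hx)

theorem exists_abv_charP {F : Type*} [Field F] (p : ℕ) [Fact p.Prime] [CharP F p] (lam : F)
    (h : ∀ k : ℕ, 0 < k → lam ^ k ≠ 1) : ∃ v : AbsoluteValue F ℝ, v lam ≠ 1 := by
  classical
  by_cases h0 : lam = 0
  · refine ⟨AbsoluteValue.trivial, ?_⟩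
    rw [h0, map_zero]
    exact zero_ne_one
  let _ := ZMod.algebra F p
  apply exists_abv_of_transcendental (k0 := ZMod p) lam
  intro halg
  have hint : IsIntegral (ZMod p) lam := halg.isIntegral
  have hfg : Module.Finite (ZMod p) (Algebra.adjoin (ZMod p) {lam}) :=
    Module.Finite.iff_fg.mpr hint.fg_adjoin_singleton
  have hfin : Finite (Algebra.adjoin (ZMod p) {lam}) := Module.finite_of_finite (ZMod p)
  have hmem : lam ∈ Algebra.adjoin (ZMod p) {lam} := Algebra.subset_adjoin (Set.mem_singleton lam)
  obtain ⟨i, j, hij, hpow⟩ := Finite.exists_ne_map_eq_of_infinite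
    (fun n : ℕ => (⟨lam, hmem⟩ : Algebra.adjoin (ZMod p) {lam}) ^ n)
  have hpow' : lam ^ i = lam ^ j := by
    have := congrArg (fun z : Algebra.adjoin (ZMod p) {lam} => (z : F)) hpow
    simpa using this
  wlog hlt : i < j generalizing i j
  · exact this j i hij.symm hpow.symm hpow'.symm (lt_of_le_of_ne (not_lt.mp hlt) hij.symm)
  apply h (j - i) (Nat.sub_pos_of_lt hlt)
  have hne : lam ^ i ≠ 0 := pow_ne_zero _ h0
  have : lam ^ i * lam ^ (j - i) = lam ^ i * 1 := by
    rw [← pow_add, Nat.add_sub_cancel' hlt.le, mul_one, hpow']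
  exact mul_left_cancel₀ hne this

end Vale.Agent.Lib.P184.Tits
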