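import Vale.Agent.Lib.P184.Tits.DVal

/-!
# P184 / Tits lemma, modules N1a, N1b: algebraic numbers that are not algebraic integers

FROZEN STATEMENTS (do not change them; fill the sorries).

ROUTE N1a.  Values of `v` are `0` or `WithZero.exp a`, `a : ℤ` (`WithZero.exp`, `WithZero.log`, `WithZero.exp_log`; `v x ≠ 0` for `x ≠ 0`).
`exists_zpow_mul_unit`: `v x = exp a`; `j := -a`, `u := x / π ^ j`; `v (π ^ j) = exp (-j) = exp a` (`map_zpow₀`, `WithZero.exp_zsmul` / `exp_neg`), so `v u = 1`; if `j = 0` then `v x = 1`.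
`isDV_map_integer`: `Valuation.mem_integer_iff : x ∈ v.integer ↔ v x ≤ 1`; `Subring.mem_map`; `f` is injective.  `v π = exp (-1) < 1`, `v π⁻¹ = exp 1 > 1`.
For `x ∈ v.integer`, `x ≠ 0`: the `j` above is `≥ 0` because `exp (-j) = v x ≤ 1`; use `j.toNat`.

ROUTE N1b.  `K := IntermediateField.adjoin ℚ {lam}` is a number field (`IntermediateField.adjoin.finiteDimensional halg.isIntegral`, `NumberField.mk` / `{}`), `x := IntermediateField.AdjoinSimple.gen ℚ lam`,
`f := algebraMap K F` (`f x = lam`: `IntermediateField.AdjoinSimple.algebraMap_gen`).  `x` is not integral over `ℤ` (`IsIntegral.map` / `isIntegral_algebraMap_iff`).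
If `P.valuation K x ≤ 1` for all `P : IsDedekindDomain.HeightOneSpectrum (NumberField.RingOfIntegers K)` then `x ∈ (algebraMap (𝓞 K) K).range`
(`IsDedekindDomain.HeightOneSpectrum.mem_integers_of_valuation_le_one`), so `x` is integral (`NumberField.RingOfIntegers.isIntegral_coe`): contradiction.  (See `Lin/Places.lean` for the same step.)
Take `P` with `P.valuation K x > 1`, `π` from `P.valuation_exists_uniformizer K`, `j, u` from `exists_zpow_mul_unit`, and apply
`exists_abv_of_isDV ((P.valuation K).integer.map f) (f π) (isDV_map_integer ..) lam (f u) j ..` (`v u = 1` gives `u, u⁻¹ ∈ integer`).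
-/

namespace Vale.Agent.Lib.P184.Tits

theorem exists_zpow_mul_unit {K : Type*} [Field K] (v : Valuation K (WithZero (Multiplicative ℤ)))
    (π : K) (hπ : v π = WithZero.exp (-1 : ℤ)) (x : K) (hx : x ≠ 0) :
    ∃ (j : ℤ) (u : K), v u = 1 ∧ x = π ^ j * u ∧ (v x ≤ 1 → 0 ≤ j) ∧ (v x ≠ 1 → j ≠ 0) := by
  have hvx : v x ≠ 0 := (Valuation.ne_zero_iff v).2 hx
  have hπ0 : π ≠ 0 := by
    rintro rfl
    rw [map_zero] at hπ
    exact WithZero.exp_ne_zero.symm hπ
  set a : ℤ := WithZero.log (v x) with ha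
  have hxa : v x = WithZero.exp a := (WithZero.exp_log hvx).symm
  have hpow : v (π ^ (-a)) = WithZero.exp a := by
    rw [map_zpow₀, hπ, ← WithZero.exp_zsmul]
    simp
  refine ⟨-a, x / π ^ (-a), ?_, ?_, ?_, ?_⟩
  · rw [map_div₀, hpow, hxa]
    exact div_self WithZero.exp_ne_zero
  · field_simp
  · intro h
    rw [hxa, ← WithZero.exp_zero, WithZero.exp_le_exp] at h
    omega
  · intro h h0
    apply h
    have : a = 0 := by omega
    rw [hxa, this, WithZero.exp_zero]

theorem isDV_map_integer {K F : Type*} [Field K] [Field F] (f : K →+* F)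
    (v : Valuation K (WithZero (Multiplicative ℤ))) (π : K) (hπ : v π = WithZero.exp (-1 : ℤ)) :
    IsDV (v.integer.map f) (f π) := by
  have hπ0 : π ≠ 0 := by
    rintro rfl
    rw [map_zero] at hπ
    exact WithZero.exp_ne_zero.symm hπ
  have hπ1 : v π < 1 := by
    rw [hπ, ← WithZero.exp_zero, WithZero.exp_lt_exp]
    omega
  refine ⟨?_, ?_, ?_, ?_⟩
  · exact Subring.mem_map.2 ⟨π, (Valuation.mem_integer_iff v π).2 hπ1.le, rfl⟩
  · exact (map_ne_zero f).2 hπ0
  · intro hmem
    obtain ⟨y, hy, hfy⟩ := Subring.mem_map.1 hmem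
    rw [← map_inv₀] at hfy
    have hyπ : y = π⁻¹ := f.injective hfy
    rw [Valuation.mem_integer_iff, hyπ, map_inv₀] at hy
    have h1 : 1 ≤ v π := by
      have hvπ0 : 0 < v π := zero_lt_iff.2 ((Valuation.ne_zero_iff v).2 hπ0)
      exact (inv_le_one₀ hvπ0).1 hy
    exact absurd hπ1 (not_lt.2 h1)
  · intro x hx hx0
    obtain ⟨y, hy, rfl⟩ := Subring.mem_map.1 hx
    have hy0 : y ≠ 0 := by
      rintro rfl
      exact hx0 (map_zero f)
    obtain ⟨j, u, hu, hyu, hj, -⟩ := exists_zpow_mul_unit v π hπ y hy0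
    have hj0 : 0 ≤ j := hj ((Valuation.mem_integer_iff v y).1 hy)
    obtain ⟨J, rfl⟩ : ∃ J : ℕ, j = (J : ℤ) := ⟨j.toNat, (Int.toNat_of_nonneg hj0).symm⟩
    refine ⟨J, f u, ?_, ?_, ?_⟩
    · exact Subring.mem_map.2 ⟨u, (Valuation.mem_integer_iff v u).2 hu.le, rfl⟩
    · refine Subring.mem_map.2 ⟨u⁻¹, (Valuation.mem_integer_iff v u⁻¹).2 ?_, map_inv₀ f u⟩
      rw [map_inv₀, hu, inv_one]
    · rw [hyu, map_mul, zpow_natCast, map_pow]

theorem exists_abv_of_not_isIntegral {F : Type*} [Field F] [CharZero F] (lam : F)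
    (halg : IsAlgebraic ℚ lam) (hni : ¬ IsIntegral ℤ lam) : ∃ v : AbsoluteValue F ℝ, v lam ≠ 1 := by
  let K := IntermediateField.adjoin ℚ {lam}
  have hfd : FiniteDimensional ℚ K := IntermediateField.adjoin.finiteDimensional halg.isIntegral
  have : NumberField K := { }
  let x : K := IntermediateField.AdjoinSimple.gen ℚ lam
  let f : K →+* F := algebraMap K F
  have hfx : f x = lam := IntermediateField.AdjoinSimple.algebraMap_gen ℚ lam
  have hxni : ¬ IsIntegral ℤ x := by
    intro hx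
    apply hni
    rw [← hfx]
    exact hx.map (f : K →+* F).toIntAlgHom
  have hx0 : x ≠ 0 := by
    intro h0
    exact hxni (h0 ▸ isIntegral_zero)
  have hex : ∃ P : IsDedekindDomain.HeightOneSpectrum (NumberField.RingOfIntegers K),
      1 < P.valuation K x := by
    by_contra hcon
    push Not at hcon
    have hmem : x ∈ (algebraMap (NumberField.RingOfIntegers K) K).range :=
      IsDedekindDomain.HeightOneSpectrum.mem_integers_of_valuation_le_one K x hcon
    obtain ⟨y, hy⟩ := hmem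
    exact hxni (hy ▸ y.isIntegral_coe)
  obtain ⟨P, hP⟩ := hex
  obtain ⟨π, hπ⟩ := P.valuation_exists_uniformizer K
  obtain ⟨j, u, hu, hxe, -, hj⟩ := exists_zpow_mul_unit (P.valuation K) π hπ x hx0
  have hu0 : u ≠ 0 := by
    intro h0
    rw [h0, map_zero] at hu
    exact zero_ne_one hu
  refine exists_abv_of_isDV ((P.valuation K).integer.map f) (f π)
    (isDV_map_integer f (P.valuation K) π hπ) lam (f u) j (hj hP.ne') ?_ ?_ ?_
  · exact Subring.mem_map.2 ⟨u, (Valuation.mem_integer_iff _ _).2 hu.le, rfl⟩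
  · refine Subring.mem_map.2 ⟨u⁻¹, (Valuation.mem_integer_iff _ _).2 ?_, map_inv₀ f u⟩
    rw [map_inv₀, hu, inv_one]
  · rw [← hfx, hxe, map_mul, map_zpow₀]

end Vale.Agent.Lib.P184.Tits
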