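import Vale.Agent.Lib.P184.Tits.Main
import Vale.Agent.Lib.P184.Tits.NumField

/-!
# P184 / Tits lemma, modules C1, C2, C3: every complex number that is not a root of unity is detected by a real absolute value on `ℂ`

FROZEN STATEMENTS (do not change them; fill the sorries).

ROUTE C1 (`exists_extension_complex`): every embedding `φ` of an algebraic subfield `K ⊆ ℂ` extends to a ring endomorphism of `ℂ`.
Take a transcendence basis `b : ι → ℂ` of `ℂ` over `ℚ` (`exists_isTranscendenceBasis' ℚ ℂ`).
(1) `b` is algebraically independent over `K` for the inclusion structure AND for the structure `φ.toAlgebra` (`AlgebraicIndependent.extendScalars`, needs `Algebra.IsAlgebraic ℚ K` and the scalar tower `ℚ → K → ℂ`, which holds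
for any ring hom out of a `ℚ`-algebra).  Equivalently: `ψ₀ := MvPolynomial.eval₂Hom φ b : MvPolynomial ι K →+* ℂ` and `MvPolynomial.aeval b : MvPolynomial ι K →ₐ[K] ℂ` are both injective.
(2) `A := Algebra.adjoin K (Set.range b)`, `A ≃ MvPolynomial ι K` (`AlgebraicIndependent.aevalEquiv`), so `ψ := ψ₀ ∘ aevalEquiv.symm : A →+* ℂ` is an injective ring hom with `ψ (algebraMap K A x) = φ x`.
(3) `ℂ` is algebraic over `A` (it is algebraic over `Algebra.adjoin ℚ (range b)`: `IsTranscendenceBasis.isAlgebraic`, and that ring maps into `A`).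
(4) `IsAlgClosed.lift` (version for a commutative ring `R := A`, `S := ℂ`, `M := ℂ` with the algebra structure `ψ.toAlgebra`; it needs `NoZeroSMulDivisors`/`FaithfulSMul` on both sides = injectivity) gives `θ : ℂ →ₐ[A] M`;
`θ (x : ℂ) = θ (algebraMap A ℂ (algebraMap K A x)) = ψ (algebraMap K A x) = φ x`.  To avoid the clash of two `Algebra A ℂ` instances use a type synonym for the target, or pass instances explicitly with `@`.

ROUTE C2 (`exists_abv_complex_of_isIntegral`): `K := IntermediateField.adjoin ℚ {lam}` is a number field, `x := AdjoinSimple.gen ℚ lam` is integral over `ℤ` and `x ^ k ≠ 1`;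
`NumberField.Embeddings.pow_eq_one_of_norm_eq_one K ℂ` gives `φ : K →+* ℂ` with `‖φ x‖ ≠ 1`; extend to `θ` by C1; `v := (NormedField.toAbsoluteValue ℂ).comp θ.injective` (or build the `AbsoluteValue` by hand: `fun z => ‖θ z‖`).

ROUTE C3 (`exists_abv_complex`): if `lam` is transcendental over `ℚ`: `exists_abv_of_transcendental`.  If algebraic and not integral over `ℤ`: `exists_abv_of_not_isIntegral`.  Otherwise C2.
-/

namespace Vale.Agent.Lib.P184.Tits

private theorem exists_algHom_aux {K L M ι : Type*} [Field K] [Field L] [Field M] [IsAlgClosed M]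
    [Algebra K L] [Algebra K M] (b : ι → L) (hb : IsTranscendenceBasis K b) (c : ι → M)
    (hc : AlgebraicIndependent K c) : Nonempty (L →ₐ[K] M) := by
  let A := Algebra.adjoin K (Set.range b)
  let ψ : A →ₐ[K] M := (MvPolynomial.aeval c).comp hb.1.aevalEquiv.symm.toAlgHom
  have hψ : Function.Injective ψ := by
    have h1 : Function.Injective (MvPolynomial.aeval c : MvPolynomial ι K →ₐ[K] M) := hc
    exact h1.comp hb.1.aevalEquiv.symm.injective
  let _ : Algebra A M := ψ.toRingHom.toAlgebra
  have : IsScalarTower K A M := IsScalarTower.of_algebraMap_eq fun x => (ψ.commutes x).symm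
  have : Algebra.IsAlgebraic A L := hb.isAlgebraic
  have : FaithfulSMul A M := (faithfulSMul_iff_algebraMap_injective A M).2 hψ
  let θ : L →ₐ[A] M := IsAlgClosed.lift
  exact ⟨θ.restrictScalars K⟩

private theorem algInd_aux {K M ι : Type*} [Field K] [Field M] [Algebra ℚ K] [Algebra ℚ M]
    [Algebra.IsAlgebraic ℚ K] [Algebra K M] (c : ι → M) (hc : AlgebraicIndependent ℚ c) :
    AlgebraicIndependent K c := by
  have : IsScalarTower ℚ K M := IsScalarTower.of_algebraMap_eq fun x => by simp
  exact hc.extendScalars K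

theorem exists_extension_complex (K : IntermediateField ℚ ℂ) [Algebra.IsAlgebraic ℚ K]
    (φ : K →+* ℂ) : ∃ θ : ℂ →+* ℂ, ∀ x : K, θ (x : ℂ) = φ x := by
  obtain ⟨ι, b, hb⟩ := exists_isTranscendenceBasis' ℚ ℂ
  have hbK : IsTranscendenceBasis K b := (Algebra.IsAlgebraic.isTranscendenceBasis_iff ℚ K).1 hb
  have hcK : @AlgebraicIndependent ι K ℂ b _ _ φ.toAlgebra :=
    @algInd_aux K ℂ ι _ _ _ _ _ φ.toAlgebra b hb.1
  obtain ⟨θ⟩ := @exists_algHom_aux K ℂ ℂ ι _ _ _ _ _ φ.toAlgebra b hbK b hcK
  refine ⟨@AlgHom.toRingHom K ℂ ℂ _ _ _ _ φ.toAlgebra θ, fun x => ?_⟩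
  exact @AlgHom.commutes K ℂ ℂ _ _ _ _ φ.toAlgebra θ x

theorem exists_abv_complex_of_isIntegral (lam : ℂ) (hi : IsIntegral ℤ lam)
    (h : ∀ k : ℕ, 0 < k → lam ^ k ≠ 1) : ∃ v : AbsoluteValue ℂ ℝ, v lam ≠ 1 := by
  have hiQ : IsIntegral ℚ lam := hi.tower_top
  let K := IntermediateField.adjoin ℚ {lam}
  have hfd : FiniteDimensional ℚ K := IntermediateField.adjoin.finiteDimensional hiQ
  have : NumberField K := { }
  have : Algebra.IsAlgebraic ℚ K := Algebra.IsAlgebraic.of_finite ℚ K
  let x : K := IntermediateField.AdjoinSimple.gen ℚ lam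
  have hfx : (x : ℂ) = lam := IntermediateField.AdjoinSimple.coe_gen ℚ lam
  have hxi : IsIntegral ℤ x := by
    have hinj : Function.Injective (algebraMap K ℂ) := (algebraMap K ℂ).injective
    have : IsIntegral ℤ (algebraMap K ℂ x) := by
      have h2 : algebraMap K ℂ x = lam := hfx
      rw [h2]; exact hi
    exact (isIntegral_algebraMap_iff hinj).1 this
  have hxk : ∀ k : ℕ, 0 < k → x ^ k ≠ 1 := by
    intro k hk hxk
    apply h k hk
    have := congrArg (fun y : K => (y : ℂ)) hxk
    simpa [hfx] using this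
  have hex : ∃ φ : K →+* ℂ, ‖φ x‖ ≠ 1 := by
    by_contra hcon
    push Not at hcon
    obtain ⟨n, hn, hxn⟩ := NumberField.Embeddings.pow_eq_one_of_norm_eq_one K ℂ hxi hcon
    exact hxk n hn hxn
  obtain ⟨φ, hφ⟩ := hex
  obtain ⟨θ, hθ⟩ := exists_extension_complex K φ
  refine ⟨(NormedField.toAbsoluteValue ℂ).comp θ.injective, ?_⟩
  have h1 : θ lam = φ x := by rw [← hfx]; exact hθ x
  have h2 : ((NormedField.toAbsoluteValue ℂ).comp θ.injective) lam = ‖θ lam‖ := rfl
  rw [h2, h1]
  exact hφ

theorem exists_abv_complex (lam : ℂ) (h : ∀ k : ℕ, 0 < k → lam ^ k ≠ 1) :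
    ∃ v : AbsoluteValue ℂ ℝ, v lam ≠ 1 := by
  by_cases ht : Transcendental ℚ lam
  · exact exists_abv_of_transcendental lam ht
  · have halg : IsAlgebraic ℚ lam := by
      simpa [Transcendental] using ht
    by_cases hi : IsIntegral ℤ lam
    · exact exists_abv_complex_of_isIntegral lam hi h
    · exact exists_abv_of_not_isIntegral lam halg hi

end Vale.Agent.Lib.P184.Tits
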