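import Mathlib

/-!
# P184 / Tits lemma, module T1: a subfield `k` with `lam` transcendental over `k` and `F` algebraic over `k[lam]`

FROZEN STATEMENT (proved, helper9).

ROUTE.  `{lam}` is algebraically independent over `k0` (`algebraicIndependent_singleton_iff` /
`AlgebraicIndepOn`, from `h`).  `exists_isTranscendenceBasis_superset` gives a transcendence basis `t ∋ lam`.
Put `k := IntermediateField.adjoin k0 (t \ {lam})`.
* `lam` is transcendental over `Algebra.adjoin k0 (t \ {lam})` (algebraic independence of `t = insert lam (t \ {lam})`:
  `AlgebraicIndepOn.insert_iff` / `algebraicIndependent_insert` / `AlgebraicIndependent.transcendental_adjoin`),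
  hence over its field of fractions `k` (`IntermediateField.adjoin` is the fraction field of `Algebra.adjoin`:
  `IntermediateField.adjoin_algebraic_toSubalgebra` does not apply; use
  `IsFractionRing.isAlgebraic_iff` with the instance `IsFractionRing (Algebra.adjoin k0 s) (IntermediateField.adjoin k0 s)`,
  or clear denominators by hand).
* `F` is algebraic over `Algebra.adjoin k0 t` (`IsTranscendenceBasis.isAlgebraic`), and every element of
  `Algebra.adjoin k0 t` lies in `Algebra.adjoin k {lam}`, so `F` is algebraic over the bigger ring
  (map the polynomial: `IsAlgebraic.extendScalars` / `Algebra.IsAlgebraic.extendScalars` / `IsAlgebraic.tower_top_of_injective`,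
  or by hand with `Polynomial.map` along the inclusion, which is injective).

ALTERNATIVE ROUTE (Zorn): take `k` maximal among intermediate fields over which `lam` is transcendental.
-/

namespace Vale.Agent.Lib.P184.Tits

private theorem isAlgebraic_of_le {F : Type*} [Field F] (A B : Subring F) (hle : A ≤ B)
    (h : ∀ x : F, IsAlgebraic A x) (x : F) : IsAlgebraic B x := by
  obtain ⟨p, hp, hpx⟩ := h x
  refine ⟨p.map (Subring.inclusion hle), ?_, ?_⟩
  · intro h0
    exact hp ((Polynomial.map_eq_zero_iff (Subring.inclusion_injective hle)).mp h0)
  · rw [Polynomial.aeval_def, Polynomial.eval₂_map]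
    rw [Polynomial.aeval_def] at hpx
    exact hpx

open IntermediateField.algebraAdjoinAdjoin in
theorem exists_intermediate {k0 F : Type*} [Field k0] [Field F] [Algebra k0 F] (lam : F)
    (h : Transcendental k0 lam) :
    ∃ k : IntermediateField k0 F, Transcendental k lam ∧
      Algebra.IsAlgebraic (Algebra.adjoin k {lam}) F := by
  classical
  have hs : AlgebraicIndepOn k0 id ({lam} : Set F) :=
    (algebraicIndependent_singleton_iff (⟨lam, rfl⟩ : ({lam} : Set F))).mpr h
  obtain ⟨t, hst, ht⟩ := exists_isTranscendenceBasis_superset hs
  have hlt : lam ∈ t := hst rfl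
  have hins : insert lam (t \ {lam}) = t := by
    rw [Set.insert_sdiff_singleton, Set.insert_eq_of_mem hlt]
  have hns : lam ∉ t \ {lam} := by simp
  have h1 : AlgebraicIndepOn k0 id (insert lam (t \ {lam})) := by rw [hins]; exact ht.1
  have h2 := ((AlgebraicIndepOn.insert_iff hns).mp h1).2
  rw [Set.image_id, id] at h2
  refine ⟨IntermediateField.adjoin k0 (t \ {lam}), ?_, ?_⟩
  · intro halg
    exact h2 ((IsFractionRing.isAlgebraic_iff (Algebra.adjoin k0 (t \ {lam}))
      (IntermediateField.adjoin k0 (t \ {lam})) F).mpr halg)
  · have h3 := ht.isAlgebraic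
    rw [Subtype.range_coe] at h3
    have hle : ∀ x ∈ Algebra.adjoin k0 t,
        x ∈ Algebra.adjoin (IntermediateField.adjoin k0 (t \ {lam})) ({lam} : Set F) := by
      intro x hx
      induction hx using Algebra.adjoin_induction with
      | mem y hy =>
        by_cases hy' : y = lam
        · subst hy'; exact Algebra.subset_adjoin rfl
        · have : y ∈ IntermediateField.adjoin k0 (t \ {lam}) :=
            IntermediateField.subset_adjoin _ _ ⟨hy, hy'⟩
          exact (Algebra.adjoin (IntermediateField.adjoin k0 (t \ {lam}))
            ({lam} : Set F)).algebraMap_mem ⟨y, this⟩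
      | algebraMap r =>
        exact (Algebra.adjoin (IntermediateField.adjoin k0 (t \ {lam}))
            ({lam} : Set F)).algebraMap_mem (algebraMap k0 _ r)
      | add x y _ _ hx hy => exact add_mem hx hy
      | mul x y _ _ hx hy => exact mul_mem hx hy
    constructor
    intro x
    exact isAlgebraic_of_le (Algebra.adjoin k0 t).toSubring
      (Algebra.adjoin (IntermediateField.adjoin k0 (t \ {lam})) ({lam} : Set F)).toSubring
      hle (fun y => h3.isAlgebraic y) x

end Vale.Agent.Lib.P184.Tits
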