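import Mathlib

/-!
# P184 / Tits lemma, modules D1, D2: discrete valuation subrings of a field and their Gauss extensions

FROZEN STATEMENTS (do not change them; fill the sorries).

`IsDV R π`: the subring `R` of the field `F` is a discrete valuation ring (of its own fraction field) with uniformizer `π`, in elementary
terms: `π ∈ R`, `π ≠ 0`, `π⁻¹ ∉ R`, and every nonzero `x ∈ R` is `π ^ j * u` with `u, u⁻¹ ∈ R`.

ROUTE D1 (`exists_maximal_isDV`): `zorn_le_nonempty₀` (or `zorn_subset`-type lemma) on `{R | R₀ ≤ R ∧ IsDV R π}`.  For a nonempty chain `c`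
take `sSup c`; `Subring.mem_sSup_of_directedOn` (a chain is directed) reduces every clause to a member of the chain.

ROUTE D2 (`exists_gauss_extension`): let `I := Ideal.span {(⟨π, _⟩ : R)}`, `κ := R ⧸ I`, `red : Polynomial R →+* Polynomial κ := Polynomial.mapRingHom (Ideal.Quotient.mk I)`.
* `I` is a maximal (in particular prime) ideal: an element `π ^ j * u` of `R` outside `I` has `j = 0`, so it is a unit of `R`.  Hence `κ` is a domain and so is `Polynomial κ`.
* `R' := {x | ∃ f s : Polynomial R, red s ≠ 0 ∧ x = aeval t f / aeval t s}`; `aeval t s ≠ 0` by transcendence (`s ≠ 0`).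
  Closed under `+`, `*`, `-`, contains `0, 1` (denominators multiply: `red (s₁ * s₂) = red s₁ * red s₂ ≠ 0`).  `R ≤ R'` (constants, `s = 1`), `t ∈ R'`, `t ∉ R`
  (otherwise `X - C t` kills `t`), so `R < R'`.
* `π⁻¹ ∉ R'`: from `π⁻¹ = f(t)/s(t)` get `aeval t (s - C π * f) = 0`, so `s = C π * f` and `red s = 0`.
* every `f ≠ 0` in `Polynomial R` is `C π ^ j * f'` with `red f' ≠ 0`: induction on (or minimum of) the exponents of `π` in the finitely many nonzero coefficients; or: if `red f = 0` then all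
  coefficients are in `I`, so `f = C π * f₁`; this terminates because a fixed nonzero coefficient `π ^ j * u` can be divided by `π` at most `j` times (`π ^ (j+1) ∣ π ^ j u` would give `π⁻¹ ∈ R`).
  Then `f(t)/s(t) = π ^ j * (f'(t)/s(t))`, and both `f'(t)/s(t)` and its inverse `s(t)/f'(t)` are in `R'`.
-/

namespace Vale.Agent.Lib.P184.Tits

variable {F : Type*} [Field F]

/-- `R` is a discrete valuation ring with uniformizer `π` (elementary form). -/
def IsDV (R : Subring F) (π : F) : Prop :=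
  π ∈ R ∧ π ≠ 0 ∧ π⁻¹ ∉ R ∧ ∀ x ∈ R, x ≠ 0 → ∃ (j : ℕ) (u : F), u ∈ R ∧ u⁻¹ ∈ R ∧ x = π ^ j * u

theorem exists_maximal_isDV (R₀ : Subring F) (π : F) (h : IsDV R₀ π) :
    ∃ R : Subring F, R₀ ≤ R ∧ IsDV R π ∧ ∀ R' : Subring F, R ≤ R' → IsDV R' π → R' = R := by
  have hz := zorn_le_nonempty₀ {R : Subring F | R₀ ≤ R ∧ IsDV R π} ?_ R₀ ⟨le_refl _, h⟩
  · obtain ⟨M, hle, hM⟩ := hz
    refine ⟨M, hM.prop.1, hM.prop.2, ?_⟩
    intro R' hR' hDV
    exact le_antisymm (hM.le_of_ge ⟨le_trans hM.prop.1 hR', hDV⟩ hR') hR'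
  · intro c hc hchain y hy
    have hne : c.Nonempty := ⟨y, hy⟩
    have hdir : DirectedOn (· ≤ ·) c := hchain.directedOn
    refine ⟨sSup c, ⟨le_trans (hc hy).1 (le_sSup hy), ?_⟩, fun z hz => le_sSup hz⟩
    refine ⟨?_, (hc hy).2.2.1, ?_, ?_⟩
    · exact (le_sSup hy) (hc hy).2.1
    · intro hmem
      rw [Subring.mem_sSup_of_directedOn hne hdir] at hmem
      obtain ⟨S, hS, hmem⟩ := hmem
      exact (hc hS).2.2.2.1 hmem
    · intro x hx hx0
      rw [Subring.mem_sSup_of_directedOn hne hdir] at hx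
      obtain ⟨S, hS, hx⟩ := hx
      obtain ⟨j, u, hu, hu', hxe⟩ := (hc hS).2.2.2.2 x hx hx0
      exact ⟨j, u, le_sSup hS hu, le_sSup hS hu', hxe⟩

open Polynomial in
theorem exists_gauss_extension (R : Subring F) (π : F) (h : IsDV R π) (t : F)
    (ht : Transcendental R t) : ∃ R' : Subring F, R ≤ R' ∧ R' ≠ R ∧ IsDV R' π := by
  classical
  obtain ⟨hπR, hπ0, hπinv, hfac⟩ := h
  let p : R := ⟨π, hπR⟩
  have hp0 : p ≠ 0 := fun h => hπ0 (congrArg Subtype.val h)
  have hpu : ¬ IsUnit p := by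
    intro hu
    obtain ⟨b, hb⟩ := isUnit_iff_exists_inv.1 hu
    apply hπinv
    have h1 : π * (b : F) = 1 := congrArg Subtype.val hb
    have h2 : π⁻¹ = (b : F) := inv_eq_of_mul_eq_one_right h1
    rw [h2]; exact b.2
  -- factorisation inside `R`
  have hfacR : ∀ a : R, a ≠ 0 → ∃ (j : ℕ) (u : R), IsUnit u ∧ a = p ^ j * u := by
    intro a ha
    obtain ⟨j, u, hu, hu', hx⟩ := hfac a a.2 (fun h => ha (Subtype.ext h))
    have hu0 : u ≠ 0 := by
      rintro rfl
      apply ha
      apply Subtype.ext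
      rw [hx]; simp
    refine ⟨j, ⟨u, hu⟩, isUnit_iff_exists_inv.2 ⟨⟨u⁻¹, hu'⟩, ?_⟩, ?_⟩
    · apply Subtype.ext
      simp [hu0]
    · apply Subtype.ext
      simp [hx, p]
  have hprime : Prime p := by
    refine ⟨hp0, hpu, ?_⟩
    intro a b hab
    by_cases ha : a = 0
    · left; rw [ha]; exact dvd_zero _
    by_cases hb : b = 0
    · right; rw [hb]; exact dvd_zero _
    obtain ⟨j, u, hu, rfl⟩ := hfacR a ha
    obtain ⟨k, v, hv, rfl⟩ := hfacR b hb
    rcases Nat.eq_zero_or_pos j with rfl | hj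
    · rcases Nat.eq_zero_or_pos k with rfl | hk
      · exfalso
        apply hpu
        rw [pow_zero, one_mul, one_mul] at hab
        exact isUnit_of_dvd_unit hab (hu.mul hv)
      · right
        exact Dvd.dvd.mul_right (dvd_pow_self p hk.ne') v
    · left
      exact Dvd.dvd.mul_right (dvd_pow_self p hj.ne') u
  let I : Ideal R := Ideal.span {p}
  have hI : I.IsPrime := (Ideal.span_singleton_prime hp0).2 hprime
  let red : Polynomial R →+* Polynomial (R ⧸ I) := Polynomial.mapRingHom (Ideal.Quotient.mk I)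
  have hredC : red (C p) = 0 := by
    simp only [red, Polynomial.coe_mapRingHom, Polynomial.map_C]
    rw [Ideal.Quotient.eq_zero_iff_mem.2 (Ideal.mem_span_singleton_self p), C_0]
  have hred0 : ∀ f : Polynomial R, red f = 0 → ∃ f₁, f = C p * f₁ := by
    intro f hf
    have : C p ∣ f := by
      rw [Polynomial.C_dvd_iff_dvd_coeff]
      intro i
      have h1 := congrArg (fun q => Polynomial.coeff q i) hf
      simp only [red, Polynomial.coe_mapRingHom, Polynomial.coeff_map, Polynomial.coeff_zero] at h1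
      exact Ideal.mem_span_singleton.1 (Ideal.Quotient.eq_zero_iff_mem.1 h1)
    exact this
  have hne : ∀ s : Polynomial R, red s ≠ 0 → aeval t s ≠ 0 := by
    intro s hs h0
    apply hs
    rw [transcendental_iff.1 ht s h0, map_zero]
  -- extraction of the content
  have hcontent : ∀ (m : ℕ) (f : Polynomial R), (∃ (i : ℕ) (u : R), IsUnit u ∧ f.coeff i = p ^ m * u) →
      ∃ (j : ℕ) (f' : Polynomial R), f = C p ^ j * f' ∧ red f' ≠ 0 := by
    intro m
    induction m with
    | zero =>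
      rintro f ⟨i, u, hu, hi⟩
      refine ⟨0, f, by simp, ?_⟩
      intro hf
      obtain ⟨f₁, rfl⟩ := hred0 f hf
      rw [Polynomial.coeff_C_mul, pow_zero, one_mul] at hi
      exact hpu (isUnit_of_dvd_unit ⟨_, hi.symm⟩ hu)
    | succ m ih =>
      rintro f ⟨i, u, hu, hi⟩
      by_cases hf : red f = 0
      · obtain ⟨f₁, rfl⟩ := hred0 f hf
        rw [Polynomial.coeff_C_mul, pow_succ', mul_assoc] at hi
        have hi' := mul_left_cancel₀ hp0 hi
        obtain ⟨j, f', hj, hf'⟩ := ih f₁ ⟨i, u, hu, hi'⟩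
        exact ⟨j + 1, f', by rw [hj, pow_succ', mul_assoc], hf'⟩
      · exact ⟨0, f, by simp, hf⟩
  have hcontent' : ∀ f : Polynomial R, f ≠ 0 →
      ∃ (j : ℕ) (f' : Polynomial R), f = C p ^ j * f' ∧ red f' ≠ 0 := by
    intro f hf
    obtain ⟨i, hi⟩ : ∃ i, f.coeff i ≠ 0 := by
      by_contra hcon
      push Not at hcon
      exact hf (Polynomial.ext (by simpa using hcon))
    obtain ⟨m, u, hu, hm⟩ := hfacR _ hi
    exact hcontent m f ⟨i, u, hu, hm⟩
  have hred1 : red 1 ≠ 0 := by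
    rw [map_one]; exact one_ne_zero
  let R' : Subring F :=
    { carrier := {x | ∃ f s : Polynomial R, red s ≠ 0 ∧ x = aeval t f / aeval t s}
      mul_mem' := by
        rintro _ _ ⟨f₁, s₁, h₁, rfl⟩ ⟨f₂, s₂, h₂, rfl⟩
        refine ⟨f₁ * f₂, s₁ * s₂, ?_, ?_⟩
        · rw [map_mul]; exact mul_ne_zero h₁ h₂
        · rw [map_mul, map_mul, div_mul_div_comm]
      one_mem' := ⟨1, 1, hred1, by simp⟩
      add_mem' := by
        rintro _ _ ⟨f₁, s₁, h₁, rfl⟩ ⟨f₂, s₂, h₂, rfl⟩
        refine ⟨f₁ * s₂ + s₁ * f₂, s₁ * s₂, ?_, ?_⟩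
        · rw [map_mul]; exact mul_ne_zero h₁ h₂
        · rw [map_add, map_mul, map_mul, map_mul, div_add_div _ _ (hne _ h₁) (hne _ h₂)]
      zero_mem' := ⟨0, 1, hred1, by simp⟩
      neg_mem' := by
        rintro _ ⟨f, s, h₁, rfl⟩
        exact ⟨-f, s, h₁, by rw [map_neg, neg_div]⟩ }
  have hmem : ∀ x, x ∈ R' ↔ ∃ f s : Polynomial R, red s ≠ 0 ∧ x = aeval t f / aeval t s :=
    fun x => Iff.rfl
  have hle : R ≤ R' := by
    intro x hx
    rw [hmem]
    refine ⟨C ⟨x, hx⟩, 1, hred1, ?_⟩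
    rw [Polynomial.aeval_C, map_one, div_one]
    rfl
  refine ⟨R', hle, ?_, hle hπR, hπ0, ?_, ?_⟩
  · intro heq
    have htR' : t ∈ R' := by
      rw [hmem]
      exact ⟨X, 1, hred1, by simp⟩
    rw [heq] at htR'
    have h1 : aeval t (X - C (⟨t, htR'⟩ : R)) = 0 := by
      rw [map_sub, Polynomial.aeval_X, Polynomial.aeval_C]
      exact sub_self t
    exact Polynomial.X_sub_C_ne_zero _ (transcendental_iff.1 ht _ h1)
  · intro hcon
    rw [hmem] at hcon
    obtain ⟨f, s, hs, hx⟩ := hcon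
    have hs0 := hne s hs
    have h1 : aeval t (s - C p * f) = 0 := by
      rw [map_sub, map_mul, Polynomial.aeval_C]
      have h2 : algebraMap R F p = π := rfl
      rw [h2]
      field_simp at hx
      rw [← hx]; ring
    have h3 := transcendental_iff.1 ht _ h1
    apply hs
    rw [sub_eq_zero.1 h3, map_mul, hredC, zero_mul]
  · intro x hx hx0
    rw [hmem] at hx
    obtain ⟨f, s, hs, rfl⟩ := hx
    have hf0 : f ≠ 0 := by
      rintro rfl
      apply hx0
      simp
    obtain ⟨j, f', rfl, hf'⟩ := hcontent' f hf0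
    refine ⟨j, aeval t f' / aeval t s, (hmem _).2 ⟨f', s, hs, rfl⟩, (hmem _).2 ⟨s, f', hf', ?_⟩, ?_⟩
    · rw [inv_div]
    · rw [map_mul, map_pow, Polynomial.aeval_C, mul_div_assoc]
      rfl

/-- over a maximal one the field is algebraic -/
theorem isAlgebraic_of_maximal (R : Subring F) (π : F) (h : IsDV R π)
    (hmax : ∀ R' : Subring F, R ≤ R' → IsDV R' π → R' = R) (x : F) : IsAlgebraic R x := by
  by_contra hx
  obtain ⟨R', hle, hne, hR'⟩ := exists_gauss_extension R π h x hx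
  exact hne (hmax R' hle hR')

end Vale.Agent.Lib.P184.Tits
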