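import Vale.Agent.Lib.P184.Tits.DV
import Vale.Agent.Lib.P184.Tits.RankOne

/-!
# P184 / Tits lemma, modules D3, D4, D5: from a discrete valuation subring to a real absolute value on the whole field

FROZEN STATEMENTS (do not change them; fill the sorries).

ROUTE D3 (`exists_valuationSubring_of_isDV`): `I := Ideal.span {(⟨π, _⟩ : R)} ≠ ⊤` (otherwise `π * a = 1`, `a ∈ R`, so `π⁻¹ = a ∈ R`).
`Ideal.image_subset_nonunits_valuationSubring I hI` gives `O` with `R ≤ O.toSubring` and `π ∈ O.nonunits` (`ValuationSubring.mem_nonunits_iff`).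
For `x = π ^ j * u`, `u, u⁻¹ ∈ R ⊆ O` give `O.valuation u = 1` (`ValuationSubring.valuation_le_one_iff`, `map_inv₀`), so `O.valuation x = O.valuation π ^ j`.

ROUTE D4 (`torsion_of_isAlgebraic`): same as `valuation_torsion` in `Tits/Chevalley.lean` (share the proof if it is already there): `x` is a root of a nonzero polynomial `P` over `A`;
among the nonzero terms `a_i x ^ i` the largest valuation is attained at least twice (otherwise the valuation of the sum equals that maximum, which is not `0`);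
so `w a_i * w x ^ i = w a_j * w x ^ j` with `i < j`, `a_i, a_j ≠ 0`, i.e. `w x ^ (j - i) = w π ^ (m_i - m_j)` with integer exponent.

ROUTE D5 (`exists_abv_of_isDV`): take `R` maximal above `R₀` (`exists_maximal_isDV`), `O` from D3, all `x` algebraic over `R` (`isAlgebraic_of_maximal`), so D4 gives
`w x ^ n = w π ^ m`.  `w lam = w π ^ j` (integer `j ≠ 0`; `u, u⁻¹ ∈ R₀ ≤ R ≤ O`).  If `j > 0` apply `exists_abv_of_torsion w lam` (`w lam < 1`; `w x ^ (n * j) = w lam ^ m`).
If `j < 0` apply it to `lam⁻¹` and use `v lam⁻¹ = (v lam)⁻¹`.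
-/

namespace Vale.Agent.Lib.P184.Tits

variable {F : Type*} [Field F]

theorem exists_valuationSubring_of_isDV (R : Subring F) (π : F) (h : IsDV R π) :
    ∃ O : ValuationSubring F, R ≤ O.toSubring ∧ O.valuation π < 1 ∧
      ∀ x ∈ R, x ≠ 0 → ∃ j : ℕ, O.valuation x = O.valuation π ^ j := by
  classical
  obtain ⟨hπR, hπ0, hπinv, hdec⟩ := h
  set I : Ideal R := Ideal.span {(⟨π, hπR⟩ : R)} with hI
  have hItop : I ≠ ⊤ := by
    intro htop
    have h1 : (1 : R) ∈ I := by rw [htop]; trivial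
    rw [hI, Ideal.mem_span_singleton'] at h1
    obtain ⟨a, ha⟩ := h1
    have hmul : (a : F) * π = 1 := by
      have := congrArg (fun z : R => (z : F)) ha
      simpa using this
    apply hπinv
    have : π⁻¹ = (a : F) := by
      rw [inv_eq_iff_eq_inv]
      exact (eq_inv_of_mul_eq_one_right hmul)
    rw [this]
    exact a.2
  obtain ⟨O, hAO, hO⟩ := Ideal.image_subset_nonunits_valuationSubring I hItop
  refine ⟨O, hAO, ?_, ?_⟩
  · have : π ∈ O.nonunits := by
      apply hO
      exact ⟨⟨π, hπR⟩, Ideal.subset_span (Set.mem_singleton _), rfl⟩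
    exact (ValuationSubring.mem_nonunits_iff O).mp this
  · intro x hx hx0
    obtain ⟨j, u, hu, hu', rfl⟩ := hdec x hx hx0
    refine ⟨j, ?_⟩
    have h1 : O.valuation u ≤ 1 := (ValuationSubring.valuation_le_one_iff O u).2 (hAO hu)
    have h2 : O.valuation u⁻¹ ≤ 1 := (ValuationSubring.valuation_le_one_iff O u⁻¹).2 (hAO hu')
    have hu0 : u ≠ 0 := by
      rintro rfl
      simp at hx0
    have hv0 : O.valuation u ≠ 0 := (Valuation.ne_zero_iff _).2 hu0
    have h3 : O.valuation u = 1 := by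
      apply le_antisymm h1
      rw [map_inv₀] at h2
      exact (inv_le_one₀ (zero_lt_iff.2 hv0)).1 h2
    rw [map_mul, map_pow, h3, mul_one]

theorem torsion_of_isAlgebraic {Γ : Type*} [LinearOrderedCommGroupWithZero Γ] (w : Valuation F Γ)
    (A : Subring F) (π : F) (hπ : π ≠ 0) (hA : ∀ a ∈ A, a ≠ 0 → ∃ j : ℕ, w a = w π ^ j) (x : F)
    (hx : x ≠ 0) (halg : IsAlgebraic A x) :
    ∃ (n : ℕ) (m : ℤ), 0 < n ∧ w x ^ n = w π ^ m := by
  classical
  obtain ⟨P, hP0, hP⟩ := halg
  have hwx : w x ≠ 0 := (Valuation.ne_zero_iff _).2 hx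
  have hwl : w π ≠ 0 := (Valuation.ne_zero_iff _).2 hπ
  let t : ℕ → F := fun i => ((P.coeff i : A) : F) * x ^ i
  have hsum : ∑ i ∈ P.support, t i = 0 := by
    have h := hP
    rw [Polynomial.aeval_def, Polynomial.eval₂_eq_sum, Polynomial.sum_def] at h
    exact h
  have hpair : ∃ i ∈ P.support, ∃ j ∈ P.support, i < j ∧ w (t i) = w (t j) := by
    by_contra hcon
    push Not at hcon
    have hne : P.support.Nonempty := by
      rw [Finset.nonempty_iff_ne_empty]
      intro h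
      exact hP0 (Polynomial.support_eq_empty.1 h)
    obtain ⟨i0, hi0, hmax⟩ := Finset.exists_max_image P.support (fun i => w (t i)) hne
    have h1 : w (∑ i ∈ P.support, t i) = w (t i0) := by
      refine Valuation.map_sum_eq_of_lt _ hi0 (fun i hi => ?_)
      rw [Finset.mem_sdiff, Finset.mem_singleton] at hi
      refine lt_of_le_of_ne (hmax i hi.1) ?_
      rcases lt_or_gt_of_ne hi.2 with h | h
      · exact hcon i hi.1 i0 hi0 h
      · exact (hcon i0 hi0 i hi.1 h).symm
    rw [hsum, map_zero] at h1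
    have h2 : t i0 ≠ 0 := by
      refine mul_ne_zero ?_ (pow_ne_zero _ hx)
      have := Polynomial.mem_support_iff.1 hi0
      exact fun h => this (Subtype.ext h)
    exact (Valuation.ne_zero_iff _).2 h2 h1.symm
  obtain ⟨i, hi, j, hj, hij, heq⟩ := hpair
  have hai : ((P.coeff i : A) : F) ≠ 0 := by
    have := Polynomial.mem_support_iff.1 hi
    exact fun h => this (Subtype.ext h)
  have haj : ((P.coeff j : A) : F) ≠ 0 := by
    have := Polynomial.mem_support_iff.1 hj
    exact fun h => this (Subtype.ext h)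
  obtain ⟨mi, hmi⟩ := hA _ (P.coeff i).2 hai
  obtain ⟨mj, hmj⟩ := hA _ (P.coeff j).2 haj
  refine ⟨j - i, (mi : ℤ) - mj, by omega, ?_⟩
  simp only [t, map_mul, map_pow] at heq
  rw [hmi, hmj] at heq
  have hj' : w x ^ j = w x ^ (j - i) * w x ^ i := by
    rw [← pow_add]
    congr 1
    omega
  rw [hj', ← mul_assoc] at heq
  have h3 := mul_right_cancel₀ (pow_ne_zero i hwx) heq
  rw [zpow_sub₀ hwl, zpow_natCast, zpow_natCast, h3]
  field_simp

private theorem exists_abv_of_isDV_pos (R₀ : Subring F) (π : F) (h : IsDV R₀ π) (lam u : F) (j : ℤ)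
    (hj : 0 < j) (hu0 : u ≠ 0) (hu : u ∈ R₀) (hu' : u⁻¹ ∈ R₀) (hlam : lam = π ^ j * u) :
    ∃ v : AbsoluteValue F ℝ, v lam ≠ 1 := by
  classical
  obtain ⟨R, hle, hR, hmax⟩ := exists_maximal_isDV R₀ π h
  obtain ⟨O, hRO, hπ1, hval⟩ := exists_valuationSubring_of_isDV R π hR
  have hπ0 : π ≠ 0 := hR.2.1
  have hwπ0 : O.valuation π ≠ 0 := (Valuation.ne_zero_iff _).2 hπ0
  have h1 : O.valuation u ≤ 1 := (ValuationSubring.valuation_le_one_iff O u).2 (hRO (hle hu))
  have h2 : O.valuation u⁻¹ ≤ 1 := (ValuationSubring.valuation_le_one_iff O u⁻¹).2 (hRO (hle hu'))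
  have hv0 : O.valuation u ≠ 0 := (Valuation.ne_zero_iff _).2 hu0
  have h3 : O.valuation u = 1 := by
    apply le_antisymm h1
    rw [map_inv₀] at h2
    exact (inv_le_one₀ (zero_lt_iff.2 hv0)).1 h2
  have hwlam : O.valuation lam = O.valuation π ^ j := by
    rw [hlam, map_mul, map_zpow₀, h3, mul_one]
  have hlam0 : lam ≠ 0 := by
    rw [hlam]
    exact mul_ne_zero (zpow_ne_zero _ hπ0) hu0
  obtain ⟨J, rfl⟩ : ∃ J : ℕ, j = (J : ℤ) := ⟨j.toNat, (Int.toNat_of_nonneg hj.le).symm⟩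
  have hJ : 0 < J := by exact_mod_cast hj
  rw [zpow_natCast] at hwlam
  refine exists_abv_of_torsion O.valuation lam hlam0 ?_ ?_
  · rw [hwlam]
    exact pow_lt_one₀ zero_le hπ1 hJ.ne'
  · intro x hx
    obtain ⟨n, m, hn, hnm⟩ := torsion_of_isAlgebraic O.valuation R π hπ0 hval x hx
      (isAlgebraic_of_maximal R π hR hmax x)
    refine ⟨n * J, m, Nat.mul_pos hn hJ, ?_⟩
    rw [pow_mul, hnm, hwlam, ← zpow_natCast, ← zpow_natCast, ← zpow_mul, ← zpow_mul, mul_comm]

theorem exists_abv_of_isDV (R₀ : Subring F) (π : F) (h : IsDV R₀ π) (lam u : F) (j : ℤ) (hj : j ≠ 0)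
    (hu : u ∈ R₀) (hu' : u⁻¹ ∈ R₀) (hlam : lam = π ^ j * u) :
    ∃ v : AbsoluteValue F ℝ, v lam ≠ 1 := by
  classical
  by_cases hu0 : u = 0
  · refine ⟨AbsoluteValue.trivial, ?_⟩
    rw [hlam, hu0, mul_zero, map_zero]
    exact zero_ne_one
  rcases lt_or_gt_of_ne hj with hneg | hpos
  · obtain ⟨v, hv⟩ := exists_abv_of_isDV_pos R₀ π h lam⁻¹ u⁻¹ (-j) (by omega) (inv_ne_zero hu0) hu'
      (by rwa [inv_inv]) (by rw [hlam, mul_inv, zpow_neg])
    refine ⟨v, fun h1 => hv ?_⟩
    rw [map_inv₀, h1, inv_one]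
  · exact exists_abv_of_isDV_pos R₀ π h lam u j hpos hu0 hu hu' hlam

end Vale.Agent.Lib.P184.Tits
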